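import Vale.Agent.Lib.P252.Final

open Vale.Agent.Lib.P252 Matrix
open scoped ContDiff

namespace Vale.Agent.Results.P252.A_entire_counterexample

theorem result (n : ℕ) (hn : 10 ≤ n) :
    ∃ u : (Fin n → ℝ) → ℝ, ContDiff ℝ ∞ u ∧ (∀ x, (hess u x).PosDef)
      ∧ (∀ x, ∑ i, ∑ j, ((hess u x).det • (hess u x)⁻¹) i j * hess (affW u) x i j = 0)
      ∧ ∀ (A : Matrix (Fin n) (Fin n) ℝ) (b : Fin n → ℝ) (c : ℝ),
          ¬ ∀ x, u x = (1 / 2) * (x ⬝ᵥ A *ᵥ x) + b ⬝ᵥ x + c :=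
  entire_counterexample n hn

end Vale.Agent.Results.P252.A_entire_counterexample
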