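import Vale.Agent.Lib.P252.AM

open Vale.Agent.Lib.P252

namespace Vale.Agent.Results.P252.A_semidefinite_w

theorem result {n : ℕ} (hn : 1 ≤ n)
    (Ω : Set (Fin n → ℝ)) (hO : IsOpen Ω) (hc : Convex ℝ Ω) (hne : Ω.Nonempty)
    (u : (Fin n → ℝ) → ℝ) (hu : ContDiffOn ℝ 4 u Ω)
    (hpd : ∀ x ∈ Ω, (hess u x).PosDef)
    (hAM : ∀ x ∈ Ω, ∑ i, ∑ j, ((hess u x).det • (hess u x)⁻¹) i j * hess (affW u) x i j = 0)
    (hclosed : IsClosed (graphOver Ω u))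
    (hsemi : ∀ x ∈ Ω, (hess (affW u) x).PosSemidef ∨ (-hess (affW u) x).PosSemidef) :
    Ω = Set.univ ∧ ∃ c : ℝ, 0 < c ∧ ∀ x, (hess u x).det = c :=
  main_am hn hO hc hne hu hpd hAM hclosed hsemi

end Vale.Agent.Results.P252.A_semidefinite_w
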