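import Vale.Agent.Lib.P252.Pinch

open Vale.Agent.Lib.P252

namespace Vale.Agent.Results.P252.B_pinched_det

theorem result {n : ℕ} (hn : 1 ≤ n)
    (Ω : Set (Fin n → ℝ)) (hO : IsOpen Ω) (hc : Convex ℝ Ω) (hne : Ω.Nonempty)
    (u : (Fin n → ℝ) → ℝ) (hu : ContDiffOn ℝ 2 u Ω)
    (hpd : ∀ x ∈ Ω, (hess u x).PosDef)
    (hclosed : IsClosed (graphOver Ω u))
    (b : Fin n → ℝ) (γ : ℝ) (hℓ : ∀ x ∈ Ω, 0 < γ + b ⬝ᵥ x)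
    (β lam Lam : ℝ) (hβ0 : 0 ≤ β) (hβ2 : β < 2) (hlam : 0 < lam) (hLam : 0 < Lam)
    (hlow : ∀ x ∈ Ω, lam * (γ + b ⬝ᵥ x) ^ (-β) ≤ (hess u x).det)
    (hup : ∀ x ∈ Ω, (hess u x).det ≤ Lam * (γ + b ⬝ᵥ x) ^ (-β)) :
    b = 0 := by
  by_contra hb
  exact pinching_false hn hO hc hne hu hpd hclosed b hb γ hℓ hβ0 hβ2 hlam hLam hlow hup

end Vale.Agent.Results.P252.B_pinched_det
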